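import Crest.Agent.S0110.Defs

/-!
# S0110 (row 82), part (b): discrete Fenchel argument

`T = y ∘ σ` is a measurable map with finitely many values `y i` such that `σ x` maximises
`i ↦ ⟪x, y i⟫ - c i` for `ρ`-a.e. `x`. Then `T` is a quadratic optimal transport map (among maps)
from `ρ` to `ρ.map T`, and every optimal map `S` agrees with `T` at a.e. point where the maximiser
is strict. Also: optimality is preserved under conjugation by a measure-preserving isometric
involution.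
-/

set_option autoImplicit false
open MeasureTheory
open scoped ENNReal NNReal RealInnerProductSpace
open Crest.AnalysisR.OT

namespace Crest.Agent.S0110

/-- Auxiliary weight: the function equal to `a i` at the point `y i` and `0` off the range. -/
noncomputable def fenchelK {d : ℕ} {ι : Type} [Fintype ι] (y : ι → E d) (a : ι → ℝ) (v : E d) : ℝ :=
  ∑ i, if v = y i then a i else 0

theorem fenchelK_apply {d : ℕ} {ι : Type} [Fintype ι] (y : ι → E d) (hy : Function.Injective y)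
    (a : ι → ℝ) (j : ι) : fenchelK y a (y j) = a j := by
  classical
  unfold fenchelK
  rw [Finset.sum_eq_single j]
  · simp
  · intro i _ hij
    have : y j ≠ y i := fun h => hij (hy h).symm
    simp [this]
  · intro h
    exact absurd (Finset.mem_univ j) h

theorem fenchelK_measurable {d : ℕ} {ι : Type} [Fintype ι] (y : ι → E d) (a : ι → ℝ) :
    Measurable (fenchelK y a) := by
  classical
  unfold fenchelK
  refine Finset.measurable_sum _ (fun i _ => ?_)
  exact Measurable.ite (measurableSet_eq) measurable_const measurable_const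

theorem fenchelK_nonneg {d : ℕ} {ι : Type} [Fintype ι] (y : ι → E d) (a : ι → ℝ)
    (ha : ∀ i, 0 ≤ a i) (v : E d) : 0 ≤ fenchelK y a v := by
  classical
  unfold fenchelK
  refine Finset.sum_nonneg (fun i _ => ?_)
  split_ifs
  · exact ha i
  · exact le_rfl

theorem fenchelK_le {d : ℕ} {ι : Type} [Fintype ι] (y : ι → E d) (a : ι → ℝ)
    (ha : ∀ i, 0 ≤ a i) (v : E d) : fenchelK y a v ≤ ∑ i, a i := by
  classical
  unfold fenchelK
  refine Finset.sum_le_sum (fun i _ => ?_)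
  split_ifs
  · exact le_rfl
  · exact ha i

theorem fenchel_aux_sq {d : ℕ} (x u v : E d) (cu cv M : ℝ) :
    (‖x - u‖ ^ 2 + (‖v‖ ^ 2 - 2 * cv + M)) - (‖x - v‖ ^ 2 + (‖u‖ ^ 2 - 2 * cu + M))
      = 2 * ((inner ℝ x v - cv) - (inner ℝ x u - cu)) := by
  rw [norm_sub_sq_real, norm_sub_sq_real]
  ring

theorem enorm_sq_eq_ofReal {d : ℕ} (v : E d) : ‖v‖ₑ ^ 2 = ENNReal.ofReal (‖v‖ ^ 2) := by
  rw [ENNReal.ofReal_pow (norm_nonneg v), ofReal_norm]

/-- The shift constant making all the auxiliary weights nonnegative. -/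
noncomputable def fenchelM {d : ℕ} {ι : Type} [Fintype ι] (y : ι → E d) (c : ι → ℝ) : ℝ :=
  ∑ i, |‖y i‖ ^ 2 - 2 * c i|

/-- The auxiliary weights `a i = ‖y i‖² - 2 c i + M ≥ 0`. -/
noncomputable def fenchelA {d : ℕ} {ι : Type} [Fintype ι] (y : ι → E d) (c : ι → ℝ) (i : ι) : ℝ :=
  ‖y i‖ ^ 2 - 2 * c i + fenchelM y c

theorem fenchelA_nonneg {d : ℕ} {ι : Type} [Fintype ι] (y : ι → E d) (c : ι → ℝ) (i : ι) :
    0 ≤ fenchelA y c i := by
  classical
  unfold fenchelA fenchelM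
  have h1 : |‖y i‖ ^ 2 - 2 * c i| ≤ ∑ j, |‖y j‖ ^ 2 - 2 * c j| :=
    Finset.single_le_sum (f := fun j => |‖y j‖ ^ 2 - 2 * c j|) (fun j _ => abs_nonneg _)
      (Finset.mem_univ i)
  have h2 := neg_abs_le (‖y i‖ ^ 2 - 2 * c i)
  linarith

/-- Core of the discrete Fenchel argument. -/
theorem fenchel_core {d : ℕ} (ρ : Measure (E d)) [IsFiniteMeasure ρ]
    {ι : Type} [Fintype ι] (y : ι → E d) (hy : Function.Injective y) (c : ι → ℝ)
    (σ : E d → ι) (T : E d → E d) (hT : Measurable T) (hTσ : ∀ x, T x = y (σ x))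
    (hmax : ∀ᵐ x ∂ρ, ∀ i, inner ℝ x (y i) - c i ≤ inner ℝ x (y (σ x)) - c (σ x))
    (S : E d → E d) (hS : Measurable S) (hST : ρ.map S = ρ.map T) :
    (∀ᵐ x ∂ρ, ‖x - T x‖ₑ ^ 2 + ENNReal.ofReal (fenchelK y (fenchelA y c) (S x))
        ≤ ‖x - S x‖ₑ ^ 2 + ENNReal.ofReal (fenchelK y (fenchelA y c) (T x))) ∧
    (∫⁻ x, ENNReal.ofReal (fenchelK y (fenchelA y c) (S x)) ∂ρ
        = ∫⁻ x, ENNReal.ofReal (fenchelK y (fenchelA y c) (T x)) ∂ρ) ∧
    (∫⁻ x, ENNReal.ofReal (fenchelK y (fenchelA y c) (T x)) ∂ρ ≠ ⊤) ∧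
    (∀ᵐ x ∂ρ, (‖x - T x‖ₑ ^ 2 + ENNReal.ofReal (fenchelK y (fenchelA y c) (S x))
        = ‖x - S x‖ₑ ^ 2 + ENNReal.ofReal (fenchelK y (fenchelA y c) (T x))) →
      (∀ i, i ≠ σ x → inner ℝ x (y i) - c i < inner ℝ x (y (σ x)) - c (σ x)) → S x = T x) := by
  classical
  set a := fenchelA y c with ha_def
  have ha : ∀ i, 0 ≤ a i := fenchelA_nonneg y c
  have hKm : Measurable (fun v => ENNReal.ofReal (fenchelK y a v)) :=
    ENNReal.measurable_ofReal.comp (fenchelK_measurable y a)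
  -- `S x` lies in the range of `y` almost everywhere
  have hrange : MeasurableSet (Set.range y)ᶜ := (Set.finite_range y).measurableSet.compl
  have hSr : ∀ᵐ x ∂ρ, S x ∈ Set.range y := by
    have h1 : ρ.map S (Set.range y)ᶜ = 0 := by
      rw [hST, Measure.map_apply hT hrange]
      have : T ⁻¹' (Set.range y)ᶜ = ∅ := by
        ext x
        simp only [Set.mem_preimage, Set.mem_compl_iff, Set.mem_range, not_exists,
          Set.mem_empty_iff_false, iff_false, not_forall, not_not]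
        exact ⟨σ x, (hTσ x).symm⟩
      rw [this, measure_empty]
    rw [Measure.map_apply hS hrange] at h1
    rw [ae_iff]
    exact h1
  -- pointwise real identity
  have hpt : ∀ x, ∀ j, S x = y j →
      (‖x - S x‖ ^ 2 + fenchelK y a (T x)) - (‖x - T x‖ ^ 2 + fenchelK y a (S x))
        = 2 * ((inner ℝ x (y (σ x)) - c (σ x)) - (inner ℝ x (y j) - c j)) := by
    intro x j hj
    rw [hj, hTσ x, fenchelK_apply y hy a, fenchelK_apply y hy a]
    have := fenchel_aux_sq x (y j) (y (σ x)) (c j) (c (σ x)) (fenchelM y c)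
    simp only [ha_def, fenchelA]
    linarith
  have hconv : ∀ x, ∀ u v : E d, ‖x - u‖ₑ ^ 2 + ENNReal.ofReal (fenchelK y a v)
      = ENNReal.ofReal (‖x - u‖ ^ 2 + fenchelK y a v) := by
    intro x u v
    rw [enorm_sq_eq_ofReal, ENNReal.ofReal_add (by positivity) (fenchelK_nonneg y a ha v)]
  refine ⟨?_, ?_, ?_, ?_⟩
  · filter_upwards [hSr, hmax] with x hx hm
    obtain ⟨j, hj⟩ := hx
    have h := hpt x j hj.symm
    have hm' := hm j
    rw [hconv, hconv]
    apply ENNReal.ofReal_le_ofReal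
    linarith
  · have e1 : ∫⁻ x, ENNReal.ofReal (fenchelK y a (S x)) ∂ρ
        = ∫⁻ v, ENNReal.ofReal (fenchelK y a v) ∂(ρ.map S) := (lintegral_map hKm hS).symm
    have e2 : ∫⁻ x, ENNReal.ofReal (fenchelK y a (T x)) ∂ρ
        = ∫⁻ v, ENNReal.ofReal (fenchelK y a v) ∂(ρ.map T) := (lintegral_map hKm hT).symm
    rw [e1, e2, hST]
  · have hle : ∫⁻ x, ENNReal.ofReal (fenchelK y a (T x)) ∂ρ
        ≤ ∫⁻ _x, ENNReal.ofReal (∑ i, a i) ∂ρ :=
      lintegral_mono (fun x => ENNReal.ofReal_le_ofReal (fenchelK_le y a ha (T x)))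
    rw [lintegral_const] at hle
    exact ne_top_of_le_ne_top (ENNReal.mul_ne_top ENNReal.ofReal_ne_top (measure_ne_top ρ _)) hle
  · filter_upwards [hSr, hmax] with x hx hm heq hstrict
    obtain ⟨j, hj⟩ := hx
    have h := hpt x j hj.symm
    rw [hconv, hconv] at heq
    have h0 : 0 ≤ ‖x - T x‖ ^ 2 + fenchelK y a (S x) :=
      add_nonneg (by positivity) (fenchelK_nonneg y a ha _)
    have h0' : 0 ≤ ‖x - S x‖ ^ 2 + fenchelK y a (T x) :=
      add_nonneg (by positivity) (fenchelK_nonneg y a ha _)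
    have heq' := (ENNReal.ofReal_eq_ofReal_iff h0 h0').mp heq
    have hjσ : j = σ x := by
      by_contra hne
      have := hstrict j hne
      linarith
    rw [← hj, hjσ, hTσ x]

/-- Discrete Fenchel: an argmax selection of finitely many affine functions is an optimal map
onto its image measure. -/
theorem fenchel_isOptimalMap {d : ℕ} (ρ : Measure (E d)) [IsFiniteMeasure ρ]
    {ι : Type} [Fintype ι] (y : ι → E d) (hy : Function.Injective y) (c : ι → ℝ)
    (σ : E d → ι) (T : E d → E d) (hT : Measurable T) (hTσ : ∀ x, T x = y (σ x))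
    (hmax : ∀ᵐ x ∂ρ, ∀ i, inner ℝ x (y i) - c i ≤ inner ℝ x (y (σ x)) - c (σ x)) :
    IsOptimalMap ρ (ρ.map T) T := by
  refine ⟨hT, rfl, ?_⟩
  intro S hS hST
  obtain ⟨h1, h2, h3, -⟩ := fenchel_core ρ y hy c σ T hT hTσ hmax S hS hST
  have hKm : Measurable (fun v => ENNReal.ofReal (fenchelK y (fenchelA y c) v)) :=
    ENNReal.measurable_ofReal.comp (fenchelK_measurable y _)
  have hTm : Measurable (fun x => ‖x - T x‖ₑ ^ 2) := (measurable_id.sub hT).enorm.pow_const 2
  have hSm : Measurable (fun x => ‖x - S x‖ₑ ^ 2) := (measurable_id.sub hS).enorm.pow_const 2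
  have hint := lintegral_mono_ae h1
  rw [lintegral_add_left hTm, lintegral_add_left hSm, h2] at hint
  exact (ENNReal.add_le_add_iff_right h3).mp hint

/-- Discrete Fenchel, uniqueness: any optimal map `S` onto `ρ.map T` agrees with `T` at almost
every point where the maximiser `σ x` is strict. -/
theorem fenchel_ae_eq {d : ℕ} (ρ : Measure (E d)) [IsFiniteMeasure ρ]
    {ι : Type} [Fintype ι] (y : ι → E d) (hy : Function.Injective y) (c : ι → ℝ)
    (σ : E d → ι) (T : E d → E d) (hT : Measurable T) (hTσ : ∀ x, T x = y (σ x))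
    (hmax : ∀ᵐ x ∂ρ, ∀ i, inner ℝ x (y i) - c i ≤ inner ℝ x (y (σ x)) - c (σ x))
    (hfin : ∫⁻ x, ‖x - T x‖ₑ ^ 2 ∂ρ ≠ ⊤)
    (S : E d → E d) (hS : IsOptimalMap ρ (ρ.map T) S) :
    ∀ᵐ x ∂ρ, (∀ i, i ≠ σ x → inner ℝ x (y i) - c i < inner ℝ x (y (σ x)) - c (σ x)) → S x = T x := by
  obtain ⟨hSm, hST, hSopt⟩ := hS
  obtain ⟨h1, h2, h3, h4⟩ := fenchel_core ρ y hy c σ T hT hTσ hmax S hSm hST
  have hKm : Measurable (fun v => ENNReal.ofReal (fenchelK y (fenchelA y c) v)) :=
    ENNReal.measurable_ofReal.comp (fenchelK_measurable y _)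
  have hTm : Measurable (fun x => ‖x - T x‖ₑ ^ 2) := (measurable_id.sub hT).enorm.pow_const 2
  have hSmm : Measurable (fun x => ‖x - S x‖ₑ ^ 2) := (measurable_id.sub hSm).enorm.pow_const 2
  have hcost : ∫⁻ x, ‖x - S x‖ₑ ^ 2 ∂ρ ≤ ∫⁻ x, ‖x - T x‖ₑ ^ 2 ∂ρ := hSopt T hT rfl
  -- the a.e. inequality is an a.e. equality
  have hfl : ∫⁻ x, (‖x - T x‖ₑ ^ 2 + ENNReal.ofReal (fenchelK y (fenchelA y c) (S x))) ∂ρ ≠ ⊤ := by
    rw [lintegral_add_left hTm, h2]
    exact ENNReal.add_ne_top.mpr ⟨hfin, h3⟩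
  have hgm : AEMeasurable
      (fun x => ‖x - S x‖ₑ ^ 2 + ENNReal.ofReal (fenchelK y (fenchelA y c) (T x))) ρ :=
    (hSmm.add (hKm.comp hT)).aemeasurable
  have hgf : ∫⁻ x, (‖x - S x‖ₑ ^ 2 + ENNReal.ofReal (fenchelK y (fenchelA y c) (T x))) ∂ρ
      ≤ ∫⁻ x, (‖x - T x‖ₑ ^ 2 + ENNReal.ofReal (fenchelK y (fenchelA y c) (S x))) ∂ρ := by
    rw [lintegral_add_left hTm, lintegral_add_left hSmm, h2]
    exact add_le_add hcost le_rfl
  have heq := ae_eq_of_ae_le_of_lintegral_le h1 hfl hgm hgf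
  filter_upwards [heq, h4] with x hx h4x
  exact h4x hx

/-- Optimality is preserved under conjugation by an isometric involution `R` preserving `ρ`:
if `T` is optimal from `ρ` to `μ.map R` then `R ∘ T ∘ R` is optimal from `ρ` to `μ`. -/
theorem isOptimalMap_conj {d : ℕ} (ρ μ : Measure (E d)) (R : E d ≃ₗᵢ[ℝ] E d)
    (hRR : ∀ x, R (R x) = x) (hρ : ρ.map R = ρ) (T : E d → E d)
    (hT : IsOptimalMap ρ (μ.map R) T) :
    IsOptimalMap ρ μ (fun x => R (T (R x))) := by
  obtain ⟨hTm, hTmap, hTopt⟩ := hT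
  have hRm : Measurable (R : E d → E d) := R.continuous.measurable
  have hRR' : (R : E d → E d) ∘ R = id := funext hRR
  -- conjugated maps: measurability, push-forward and cost
  have hconj_meas : ∀ S : E d → E d, Measurable S → Measurable (fun x => R (S (R x))) :=
    fun S hS => hRm.comp (hS.comp hRm)
  have hconj_map : ∀ S : E d → E d, Measurable S →
      ρ.map (fun x => R (S (R x))) = (ρ.map S).map R := by
    intro S hS
    have : (fun x => R (S (R x))) = (R : E d → E d) ∘ (S ∘ R) := rfl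
    rw [this, ← Measure.map_map hRm (hS.comp hRm), ← Measure.map_map hS hRm, hρ]
  have hconj_cost : ∀ S : E d → E d, Measurable S →
      ∫⁻ x, ‖x - R (S (R x))‖ₑ ^ 2 ∂ρ = ∫⁻ x, ‖x - S x‖ₑ ^ 2 ∂ρ := by
    intro S hS
    have hf : Measurable (fun x : E d => ‖x - R (S (R x))‖ₑ ^ 2) :=
      (measurable_id.sub (hconj_meas S hS)).enorm.pow_const 2
    conv_lhs => rw [← hρ]
    rw [lintegral_map hf hRm]
    refine lintegral_congr (fun x => ?_)
    rw [hRR x, ← map_sub, LinearIsometryEquiv.enorm_map]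
  have hmapRR : ∀ ν : Measure (E d), (ν.map R).map R = ν := by
    intro ν
    rw [Measure.map_map hRm hRm, hRR', Measure.map_id]
  refine ⟨hconj_meas T hTm, ?_, ?_⟩
  · rw [hconj_map T hTm, hTmap, hmapRR]
  · intro S hS hSμ
    have h1 : ρ.map (fun x => R (S (R x))) = μ.map R := by
      rw [hconj_map S hS, hSμ]
    have h2 := hTopt _ (hconj_meas S hS) h1
    rw [hconj_cost S hS] at h2
    rw [hconj_cost T hTm]
    exact h2

end Crest.Agent.S0110
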