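import Crest.Agent.S0110.Box
import Crest.Agent.S0110.Fenchel

/-!
# S0110 (row 82): the explicit three-atom example (assembly)
-/

set_option autoImplicit false
open MeasureTheory
open scoped ENNReal NNReal
open Crest.AnalysisR.OT

namespace Crest.Agent.S0110

section Example

variable {d : ℕ} (i0 i1 : Fin d) (l : ℝ)

/-- The three sites `e₀`, `-e₀`, `l e₁`. -/
noncomputable def site : Fin 3 → E d :=
  ![EuclideanSpace.single i0 (1 : ℝ), - EuclideanSpace.single i0 (1 : ℝ),
    l • EuclideanSpace.single i1 (1 : ℝ)]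

/-- The three offsets. -/
def off : Fin 3 → ℝ := ![0, 0, -l]

/-- The index of the cell of `x`. -/
noncomputable def sel (x : E d) : Fin 3 :=
  if l * (1 + x i1) ≤ x i0 then 0 else if l * (1 + x i1) ≤ - x i0 then 1 else 2

/-- The Laguerre map. -/
noncomputable def Tmap (x : E d) : E d := site i0 i1 l (sel i0 i1 l x)

/-- value of the `i`-th affine function. -/
noncomputable def val (x : E d) (i : Fin 3) : ℝ := inner ℝ x (site i0 i1 l i) - off l i

theorem val_zero (x : E d) : val i0 i1 l x 0 = x i0 := by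
  simp [val, site, off, EuclideanSpace.inner_single_right]

theorem val_one (x : E d) : val i0 i1 l x 1 = - x i0 := by
  simp [val, site, off, EuclideanSpace.inner_single_right]

theorem val_two (x : E d) : val i0 i1 l x 2 = l * x i1 + l := by
  simp [val, site, off, EuclideanSpace.inner_single_right, inner_smul_right]

/-- On the cube the selected index is a maximiser. -/
theorem val_le_sel (hl : 0 < l) (x : E d) (hx : x ∈ cube d) (i : Fin 3) :
    val i0 i1 l x i ≤ val i0 i1 l x (sel i0 i1 l x) := by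
  have h1 : -1 ≤ x i1 := (abs_le.mp (hx i1)).1
  have h2 : 0 ≤ l * (1 + x i1) := mul_nonneg hl.le (by linarith)
  unfold sel
  split_ifs with ha hb
  · fin_cases i <;> simp only [Fin.zero_eta, Fin.mk_one, Fin.reduceFinMk, val_zero, val_one, val_two] <;>
      linarith
  · fin_cases i <;> simp only [Fin.zero_eta, Fin.mk_one, Fin.reduceFinMk, val_zero, val_one, val_two] <;>
      linarith
  · fin_cases i <;> simp only [Fin.zero_eta, Fin.mk_one, Fin.reduceFinMk, val_zero, val_one, val_two] <;>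
      linarith

/-- On the box `B` the selected index is `2`, strictly. -/
theorem sel_box (hl : 0 < l) (x : E d) (h0 : 3 * l / 4 ≤ x i0) (h0' : x i0 ≤ 5 * l / 4)
    (h1 : 1 / 2 ≤ x i1) :
    sel i0 i1 l x = 2 ∧ ∀ i, i ≠ sel i0 i1 l x → val i0 i1 l x i < val i0 i1 l x (sel i0 i1 l x) := by
  have hs : sel i0 i1 l x = 2 := by
    unfold sel
    have : l * (1 + x i1) ≥ 3 * l / 2 := by nlinarith
    rw [if_neg (by linarith), if_neg (by linarith)]
  refine ⟨hs, ?_⟩
  rw [hs]
  have : l * (1 + x i1) ≥ 3 * l / 2 := by nlinarith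
  intro i hi
  fin_cases i
  · simp only [Fin.zero_eta, val_zero, val_two]; linarith
  · simp only [Fin.mk_one, val_one, val_two]; linarith
  · exact absurd rfl hi

/-- On the reflected box the selected index is `0`, strictly. -/
theorem sel_box' (hl : 0 < l) (x : E d) (h0 : 3 * l / 4 ≤ x i0) (h0' : x i0 ≤ 5 * l / 4)
    (h1 : x i1 ≤ -(1 / 2)) :
    sel i0 i1 l x = 0 ∧ ∀ i, i ≠ sel i0 i1 l x → val i0 i1 l x i < val i0 i1 l x (sel i0 i1 l x) := by
  have h3 : l * (1 + x i1) ≤ l / 2 := by nlinarith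
  have hs : sel i0 i1 l x = 0 := by
    unfold sel
    rw [if_pos (by linarith)]
  refine ⟨hs, ?_⟩
  rw [hs]
  intro i hi
  fin_cases i
  · exact absurd rfl hi
  · simp only [Fin.mk_one, val_one, val_zero]; linarith
  · simp only [Fin.reduceFinMk, val_two, val_zero]; linarith

theorem measurable_coord (i : Fin d) : Measurable (fun x : E d => x i) := by
  fun_prop

theorem measurable_sel : Measurable (sel i0 i1 l) := by
  unfold sel
  have m0 := measurable_coord i0
  have m1 := measurable_coord i1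
  refine Measurable.ite ?_ measurable_const (Measurable.ite ?_ measurable_const measurable_const)
  · exact measurableSet_le (by fun_prop) m0
  · exact measurableSet_le (by fun_prop) m0.neg

theorem measurable_Tmap : Measurable (Tmap i0 i1 l) := by
  unfold Tmap
  exact (measurable_from_top (f := site i0 i1 l)).comp (measurable_sel i0 i1 l)

theorem site_zero_apply (i : Fin d) : site i0 i1 l 0 i = if i = i0 then 1 else 0 := by
  simp [site]

theorem site_one_apply (i : Fin d) : site i0 i1 l 1 i = if i = i0 then -1 else 0 := by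
  by_cases h : i = i0 <;> simp [site, h]

theorem site_two_apply (i : Fin d) : site i0 i1 l 2 i = if i = i1 then l else 0 := by
  simp [site]

theorem site_injective (h01 : i0 ≠ i1) : Function.Injective (site i0 i1 l) := by
  intro a b hab
  have key : ∀ i : Fin 3, site i0 i1 l i i0 = ![1, -1, 0] i := by
    intro i
    fin_cases i
    · simp [site_zero_apply]
    · simp [site_one_apply]
    · simp [site_two_apply, h01]
  have h := congrArg (fun v : E d => v i0) hab
  simp only [key] at h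
  fin_cases a <;> fin_cases b <;> simp at h ⊢ <;> norm_num at h

theorem site_mem_cube (hl : |l| ≤ 1) (i : Fin 3) : site i0 i1 l i ∈ cube d := by
  intro j
  fin_cases i
  · simp only [Fin.zero_eta, site_zero_apply]; split_ifs <;> simp
  · simp only [Fin.mk_one, site_one_apply]; split_ifs <;> simp
  · simp only [Fin.reduceFinMk, site_two_apply]; split_ifs <;> simp [hl]

theorem refl1_site_zero (h01 : i0 ≠ i1) : refl1 i1 (site i0 i1 l 0) = site i0 i1 l 0 := by
  ext i
  rw [refl1_apply, site_zero_apply]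
  by_cases h : i = i1
  · subst h; simp [Ne.symm h01]
  · simp [h]

theorem refl1_site_one (h01 : i0 ≠ i1) : refl1 i1 (site i0 i1 l 1) = site i0 i1 l 1 := by
  ext i
  rw [refl1_apply, site_one_apply]
  by_cases h : i = i1
  · subst h; simp [Ne.symm h01]
  · simp [h]

theorem refl1_site_two : refl1 i1 (site i0 i1 l 2) = - site i0 i1 l 2 := by
  ext i
  rw [refl1_apply, PiLp.neg_apply, site_two_apply]
  by_cases h : i = i1
  · simp [h]
  · simp [h]

theorem refl1_mem_cube_iff (j : Fin d) (x : E d) : refl1 j x ∈ cube d ↔ x ∈ cube d := by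
  simp only [mem_cube, refl1_apply]
  refine forall_congr' (fun i => ?_)
  split_ifs <;> simp

end Example

theorem map_sel_eq_sum {d : ℕ} (ρ : Measure (E d)) (σ : E d → Fin 3) (hσ : Measurable σ)
    (y : Fin 3 → E d) :
    ρ.map (fun x => y (σ x)) = ∑ i, ρ (σ ⁻¹' {i}) • Measure.dirac (y i) := by
  have hy : Measurable y := measurable_from_top
  have h1 : ρ.map (fun x => y (σ x)) = (ρ.map σ).map y := (Measure.map_map hy hσ).symm
  have h2 : ρ.map σ = ∑ i, ρ (σ ⁻¹' {i}) • Measure.dirac i := by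
    have := Measure.sum_smul_dirac (ρ.map σ)
    rw [Measure.sum_fintype] at this
    rw [← this]
    refine Finset.sum_congr rfl (fun i _ => ?_)
    rw [Measure.map_apply hσ (measurableSet_singleton i)]
  rw [h1, h2]
  ext s hs
  rw [Measure.map_apply hy hs]
  simp only [Measure.coe_finsetSum, Measure.coe_smul, Finset.sum_apply, Pi.smul_apply]
  refine Finset.sum_congr rfl (fun i _ => ?_)
  rw [Measure.dirac_apply' _ hs, Measure.dirac_apply' _ (hy hs)]
  rfl

section Meas
variable {d : ℕ} (i0 i1 : Fin d) (l : ℝ)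

/-- The source measure. -/
noncomputable def rho (d : ℕ) : Measure (E d) := uniformProbOn (cube d)

instance (d : ℕ) : IsProbabilityMeasure (rho d) := isProbabilityMeasure_cube d

/-- The first target measure. -/
noncomputable def mu : Measure (E d) := (rho d).map (Tmap i0 i1 l)

/-- The second target measure: the mirror image of the first. -/
noncomputable def nu : Measure (E d) := (mu i0 i1 l).map (refl1 i1)

theorem ae_mem_cube (d : ℕ) : ∀ᵐ x ∂(rho d), x ∈ cube d := by
  have h := uniformProbOn_cube_compl d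
  rw [measure_eq_zero_iff_ae_notMem] at h
  filter_upwards [h] with x hx
  simpa using hx

theorem measurable_refl1 (j : Fin d) : Measurable (refl1 j) :=
  (refl1 j).continuous.measurable

theorem nu_map_refl1 : (nu i0 i1 l).map (refl1 i1) = mu i0 i1 l := by
  unfold nu
  rw [Measure.map_map (measurable_refl1 i1) (measurable_refl1 i1)]
  have : (refl1 i1 : E d → E d) ∘ (refl1 i1) = id := by
    funext x; simp [refl1_refl1]
  rw [this, Measure.map_id]

theorem isProbabilityOn_mu (hl : |l| ≤ 1) : IsProbabilityOn (cube d) (mu i0 i1 l) := by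
  refine ⟨Measure.isProbabilityMeasure_map (measurable_Tmap i0 i1 l).aemeasurable, ?_⟩
  unfold mu
  rw [Measure.map_apply (measurable_Tmap i0 i1 l) (measurableSet_cube d).compl]
  have : Tmap i0 i1 l ⁻¹' (cube d)ᶜ = ∅ := by
    ext x
    simp only [Set.mem_preimage, Set.mem_compl_iff, Set.mem_empty_iff_false, iff_false, not_not]
    exact site_mem_cube i0 i1 l hl _
  rw [this, measure_empty]

theorem isProbabilityOn_nu (hl : |l| ≤ 1) : IsProbabilityOn (cube d) (nu i0 i1 l) := by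
  have hμ := isProbabilityOn_mu i0 i1 l hl
  have := hμ.1
  refine ⟨Measure.isProbabilityMeasure_map (measurable_refl1 i1).aemeasurable, ?_⟩
  unfold nu
  rw [Measure.map_apply (measurable_refl1 i1) (measurableSet_cube d).compl]
  have : (refl1 i1 : E d → E d) ⁻¹' (cube d)ᶜ = (cube d)ᶜ := by
    ext x
    simp only [Set.mem_preimage, Set.mem_compl_iff, refl1_mem_cube_iff]
  rw [this]
  exact hμ.2

end Meas

section Meas2
variable {d : ℕ} (i0 i1 : Fin d) (l : ℝ)

/-- the weight of the `i`-th cell. -/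
noncomputable def wt (i : Fin 3) : ℝ≥0∞ := rho d (sel i0 i1 l ⁻¹' {i})

theorem wt_ne_top (i : Fin 3) : wt i0 i1 l i ≠ ⊤ := measure_ne_top _ _

theorem wt_pos (h01 : i0 ≠ i1) (hl : 0 < l) (hl' : l ≤ 1 / 4) (i : Fin 3) : 0 < wt i0 i1 l i := by
  unfold wt rho
  fin_cases i
  · -- box 2l ≤ x₀ ≤ 1
    have hb := uniformProbOn_cube_box2 (d := d) i0 i1 h01 (2 * l) 1 (-1) 1 (by linarith)
      (by linarith) le_rfl le_rfl (by norm_num) le_rfl
    have hsub : {x : E d | 2 * l ≤ x i0 ∧ x i0 ≤ 1 ∧ -1 ≤ x i1 ∧ x i1 ≤ 1} ⊆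
        sel i0 i1 l ⁻¹' {(0 : Fin 3)} := by
      intro x hx
      obtain ⟨h1, h2, h3, h4⟩ := hx
      simp only [Set.mem_preimage, Set.mem_singleton_iff]
      unfold sel
      rw [if_pos (by nlinarith)]
    refine lt_of_lt_of_le ?_ (measure_mono hsub)
    rw [hb, ENNReal.ofReal_pos]
    nlinarith
  · have hb := uniformProbOn_cube_box2 (d := d) i0 i1 h01 (-1) (-(2 * l)) (-1) 1 le_rfl
      (by linarith) (by linarith) le_rfl (by norm_num) le_rfl
    have hsub : {x : E d | -1 ≤ x i0 ∧ x i0 ≤ -(2 * l) ∧ -1 ≤ x i1 ∧ x i1 ≤ 1} ⊆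
        sel i0 i1 l ⁻¹' {(1 : Fin 3)} := by
      intro x hx
      obtain ⟨h1, h2, h3, h4⟩ := hx
      simp only [Set.mem_preimage, Set.mem_singleton_iff]
      unfold sel
      have : 0 ≤ l * (1 + x i1) := mul_nonneg hl.le (by linarith)
      rw [if_neg (by nlinarith), if_pos (by nlinarith)]
    refine lt_of_lt_of_le ?_ (measure_mono hsub)
    rw [hb, ENNReal.ofReal_pos]
    nlinarith
  · have hb := uniformProbOn_cube_box2 (d := d) i0 i1 h01 (3 * l / 4) (5 * l / 4) (1 / 2) 1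
      (by linarith) (by linarith) (by linarith) (by norm_num) (by norm_num) le_rfl
    have hsub : {x : E d | 3 * l / 4 ≤ x i0 ∧ x i0 ≤ 5 * l / 4 ∧ 1 / 2 ≤ x i1 ∧ x i1 ≤ 1} ⊆
        sel i0 i1 l ⁻¹' {(2 : Fin 3)} := by
      intro x hx
      obtain ⟨h1, h2, h3, h4⟩ := hx
      exact (sel_box i0 i1 l hl x h1 h2 h3).1
    refine lt_of_lt_of_le ?_ (measure_mono hsub)
    rw [hb, ENNReal.ofReal_pos]
    nlinarith

theorem mu_eq_sum : mu i0 i1 l = ∑ i, wt i0 i1 l i • Measure.dirac (site i0 i1 l i) :=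
  map_sel_eq_sum (rho d) (sel i0 i1 l) (measurable_sel i0 i1 l) (site i0 i1 l)

theorem nu_eq_sum :
    nu i0 i1 l = ∑ i, wt i0 i1 l i • Measure.dirac (refl1 i1 (site i0 i1 l i)) := by
  unfold nu mu
  rw [Measure.map_map (measurable_refl1 i1) (measurable_Tmap i0 i1 l)]
  exact map_sel_eq_sum (rho d) (sel i0 i1 l) (measurable_sel i0 i1 l)
    (fun i => refl1 i1 (site i0 i1 l i))

theorem isThreeAtomic_mu (h01 : i0 ≠ i1) (hl : 0 < l) (hl' : l ≤ 1 / 4) :
    IsThreeAtomic (mu i0 i1 l) := by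
  refine ⟨site i0 i1 l, site_injective i0 i1 l h01, fun i => (wt i0 i1 l i).toReal, ?_, ?_⟩
  · intro i
    exact ENNReal.toReal_pos (wt_pos i0 i1 l h01 hl hl' i).ne' (wt_ne_top i0 i1 l i)
  · rw [mu_eq_sum]
    refine Finset.sum_congr rfl (fun i _ => ?_)
    rw [ENNReal.ofReal_toReal (wt_ne_top i0 i1 l i)]

theorem isThreeAtomic_nu (h01 : i0 ≠ i1) (hl : 0 < l) (hl' : l ≤ 1 / 4) :
    IsThreeAtomic (nu i0 i1 l) := by
  refine ⟨fun i => refl1 i1 (site i0 i1 l i),
    (refl1 i1).injective.comp (site_injective i0 i1 l h01), fun i => (wt i0 i1 l i).toReal, ?_, ?_⟩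
  · intro i
    exact ENNReal.toReal_pos (wt_pos i0 i1 l h01 hl hl' i).ne' (wt_ne_top i0 i1 l i)
  · rw [nu_eq_sum]
    refine Finset.sum_congr rfl (fun i _ => ?_)
    rw [ENNReal.ofReal_toReal (wt_ne_top i0 i1 l i)]

theorem ae_val_le_sel (hl : 0 < l) :
    ∀ᵐ x ∂(rho d), ∀ i, inner ℝ x (site i0 i1 l i) - off l i ≤
      inner ℝ x (site i0 i1 l (sel i0 i1 l x)) - off l (sel i0 i1 l x) := by
  filter_upwards [ae_mem_cube d] with x hx i
  exact val_le_sel i0 i1 l hl x hx i

theorem isOptimalMap_mu (h01 : i0 ≠ i1) (hl : 0 < l) :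
    IsOptimalMap (rho d) (mu i0 i1 l) (Tmap i0 i1 l) :=
  fenchel_isOptimalMap (rho d) (site i0 i1 l) (site_injective i0 i1 l h01) (off l) (sel i0 i1 l)
    (Tmap i0 i1 l) (measurable_Tmap i0 i1 l) (fun _ => rfl) (ae_val_le_sel i0 i1 l hl)

theorem isOptimalMap_nu (h01 : i0 ≠ i1) (hl : 0 < l) :
    IsOptimalMap (rho d) (nu i0 i1 l) (fun x => refl1 i1 (Tmap i0 i1 l (refl1 i1 x))) := by
  refine isOptimalMap_conj (rho d) (nu i0 i1 l) (refl1 i1) (refl1_refl1 i1)
    (map_refl1_uniformProbOn_cube i1) (Tmap i0 i1 l) ?_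
  rw [nu_map_refl1]
  exact isOptimalMap_mu i0 i1 l h01 hl

end Meas2

section Cost
variable {d : ℕ} (i0 i1 : Fin d) (l : ℝ)

theorem enorm_sq (v : E d) : ‖v‖ₑ ^ 2 = ENNReal.ofReal (‖v‖ ^ 2) := by
  rw [← ofReal_norm, ENNReal.ofReal_pow (norm_nonneg _)]

/-- The coupling of `mu` and `nu` matching each atom with its mirror image. -/
noncomputable def cpl : Measure (E d × E d) := (mu i0 i1 l).map (fun y => (y, refl1 i1 y))

theorem measurable_pair : Measurable (fun y : E d => (y, refl1 i1 y)) :=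
  measurable_id.prodMk (measurable_refl1 i1)

theorem isPairCoupling_cpl : IsPairCoupling (mu i0 i1 l) (nu i0 i1 l) (cpl i0 i1 l) := by
  constructor
  · unfold cpl
    rw [Measure.map_map measurable_fst (measurable_pair i1)]
    exact Measure.map_id
  · unfold cpl nu
    rw [Measure.map_map measurable_snd (measurable_pair i1)]
    rfl

theorem norm_site_two : ‖site i0 i1 l 2‖ = |l| := by
  simp [site, norm_smul]

theorem cost_pointwise (h01 : i0 ≠ i1) (hl : 0 < l) (x : E d) (hx : x ∈ cube d) :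
    ‖Tmap i0 i1 l x - refl1 i1 (Tmap i0 i1 l x)‖ₑ ^ 2 ≤
      Set.indicator {x : E d | -(2 * l) ≤ x i0 ∧ x i0 ≤ 2 * l ∧ -1 ≤ x i1 ∧ x i1 ≤ 1}
        (fun _ => ENNReal.ofReal (4 * l ^ 2)) x := by
  have hx1 := abs_le.mp (hx i1)
  unfold Tmap
  by_cases ha : l * (1 + x i1) ≤ x i0
  · have hs : sel i0 i1 l x = 0 := by unfold sel; rw [if_pos ha]
    rw [hs, refl1_site_zero _ _ _ h01, sub_self]
    simp
  · by_cases hb : l * (1 + x i1) ≤ - x i0
    · have hs : sel i0 i1 l x = 1 := by unfold sel; rw [if_neg ha, if_pos hb]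
      rw [hs, refl1_site_one _ _ _ h01, sub_self]
      simp
    · have hs : sel i0 i1 l x = 2 := by unfold sel; rw [if_neg ha, if_neg hb]
      rw [hs, refl1_site_two, sub_neg_eq_add]
      have hmem : x ∈ {x : E d | -(2 * l) ≤ x i0 ∧ x i0 ≤ 2 * l ∧ -1 ≤ x i1 ∧ x i1 ≤ 1} :=
        ⟨by nlinarith, by nlinarith, hx1.1, hx1.2⟩
      rw [Set.indicator_of_mem hmem, enorm_sq]
      apply ENNReal.ofReal_le_ofReal
      have h2 : ‖site i0 i1 l 2 + site i0 i1 l 2‖ ≤ 2 * |l| := by
        calc ‖site i0 i1 l 2 + site i0 i1 l 2‖ ≤ ‖site i0 i1 l 2‖ + ‖site i0 i1 l 2‖ :=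
              norm_add_le _ _
          _ = 2 * |l| := by rw [norm_site_two]; ring
      calc ‖site i0 i1 l 2 + site i0 i1 l 2‖ ^ 2 ≤ (2 * |l|) ^ 2 :=
            pow_le_pow_left₀ (norm_nonneg _) h2 2
        _ = 4 * l ^ 2 := by rw [mul_pow, sq_abs]; norm_num

theorem quadCost_cpl_le (h01 : i0 ≠ i1) (hl : 0 < l) (hl' : l ≤ 1 / 4) :
    quadCost (cpl i0 i1 l) ≤ ENNReal.ofReal (8 * l ^ 3) := by
  unfold quadCost cpl mu
  rw [lintegral_map (by fun_prop) (measurable_pair i1),
    lintegral_map (by fun_prop) (measurable_Tmap i0 i1 l)]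
  have hS : MeasurableSet {x : E d | -(2 * l) ≤ x i0 ∧ x i0 ≤ 2 * l ∧ -1 ≤ x i1 ∧ x i1 ≤ 1} := by
    have m0 := measurable_coord i0
    have m1 := measurable_coord i1
    exact (measurableSet_le measurable_const m0).inter ((measurableSet_le m0 measurable_const).inter
      ((measurableSet_le measurable_const m1).inter (measurableSet_le m1 measurable_const)))
  calc ∫⁻ x, ‖Tmap i0 i1 l x - refl1 i1 (Tmap i0 i1 l x)‖ₑ ^ 2 ∂(rho d)
      ≤ ∫⁻ x, Set.indicator {x : E d | -(2 * l) ≤ x i0 ∧ x i0 ≤ 2 * l ∧ -1 ≤ x i1 ∧ x i1 ≤ 1}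
        (fun _ => ENNReal.ofReal (4 * l ^ 2)) x ∂(rho d) := by
        refine lintegral_mono_ae ?_
        filter_upwards [ae_mem_cube d] with x hx
        exact cost_pointwise i0 i1 l h01 hl x hx
    _ = ENNReal.ofReal (4 * l ^ 2) *
        rho d {x : E d | -(2 * l) ≤ x i0 ∧ x i0 ≤ 2 * l ∧ -1 ≤ x i1 ∧ x i1 ≤ 1} :=
        lintegral_indicator_const hS _
    _ = ENNReal.ofReal (8 * l ^ 3) := by
        unfold rho
        rw [uniformProbOn_cube_box2 (d := d) i0 i1 h01 (-(2 * l)) (2 * l) (-1) 1 (by linarith)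
          (by linarith) (by linarith) le_rfl (by norm_num) le_rfl,
          ← ENNReal.ofReal_mul (by positivity)]
        congr 1
        ring

end Cost

section Lower
variable {d : ℕ} (i0 i1 : Fin d) (l : ℝ)

theorem norm_le_of_mem_cube (x : E d) (hx : x ∈ cube d) : ‖x‖ ≤ Real.sqrt d := by
  rw [EuclideanSpace.norm_eq]
  apply Real.sqrt_le_sqrt
  calc ∑ i, ‖x i‖ ^ 2 ≤ ∑ _i : Fin d, (1 : ℝ) := by
        refine Finset.sum_le_sum (fun i _ => ?_)
        rw [Real.norm_eq_abs]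
        have := hx i
        have h0 := abs_nonneg (x i)
        nlinarith
    _ = d := by simp

theorem cost_Tmap_ne_top (hl : |l| ≤ 1) : ∫⁻ x, ‖x - Tmap i0 i1 l x‖ₑ ^ 2 ∂(rho d) ≠ ⊤ := by
  have hle : ∫⁻ x, ‖x - Tmap i0 i1 l x‖ₑ ^ 2 ∂(rho d) ≤
      ∫⁻ _x, ENNReal.ofReal ((2 * Real.sqrt d) ^ 2) ∂(rho d) := by
    refine lintegral_mono_ae ?_
    filter_upwards [ae_mem_cube d] with x hx
    rw [enorm_sq]
    apply ENNReal.ofReal_le_ofReal
    have h1 := norm_le_of_mem_cube x hx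
    have h2 := norm_le_of_mem_cube (Tmap i0 i1 l x) (site_mem_cube i0 i1 l hl _)
    have h3 : ‖x - Tmap i0 i1 l x‖ ≤ 2 * Real.sqrt d := by
      calc ‖x - Tmap i0 i1 l x‖ ≤ ‖x‖ + ‖Tmap i0 i1 l x‖ := norm_sub_le _ _
        _ ≤ 2 * Real.sqrt d := by linarith
    exact pow_le_pow_left₀ (norm_nonneg _) h3 2
  refine ne_top_of_le_ne_top ?_ hle
  rw [lintegral_const]
  exact ENNReal.mul_ne_top ENNReal.ofReal_ne_top (measure_ne_top _ _)

theorem lower_bound (h01 : i0 ≠ i1) (hl : 0 < l) (hl' : l ≤ 1 / 4) (Tμ Tν : E d → E d)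
    (hμ : IsOptimalMap (rho d) (mu i0 i1 l) Tμ) (hν : IsOptimalMap (rho d) (nu i0 i1 l) Tν) :
    ENNReal.ofReal (l / 16) ≤ ∫⁻ x, ‖Tμ x - Tν x‖ₑ ^ 2 ∂(rho d) := by
  have hl1 : |l| ≤ 1 := by rw [abs_of_pos hl]; linarith
  have hfin := cost_Tmap_ne_top i0 i1 l hl1
  have e1 := fenchel_ae_eq (rho d) (site i0 i1 l) (site_injective i0 i1 l h01) (off l)
    (sel i0 i1 l) (Tmap i0 i1 l) (measurable_Tmap i0 i1 l) (fun _ => rfl)
    (ae_val_le_sel i0 i1 l hl) hfin Tμ hμ
  have hν' : IsOptimalMap (rho d) (mu i0 i1 l) (fun x => refl1 i1 (Tν (refl1 i1 x))) :=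
    isOptimalMap_conj (rho d) (mu i0 i1 l) (refl1 i1) (refl1_refl1 i1)
      (map_refl1_uniformProbOn_cube i1) Tν hν
  have e2 := fenchel_ae_eq (rho d) (site i0 i1 l) (site_injective i0 i1 l h01) (off l)
    (sel i0 i1 l) (Tmap i0 i1 l) (measurable_Tmap i0 i1 l) (fun _ => rfl)
    (ae_val_le_sel i0 i1 l hl) hfin _ hν'
  have hmp : MeasurePreserving (refl1 i1) (rho d) (rho d) :=
    ⟨measurable_refl1 i1, map_refl1_uniformProbOn_cube i1⟩
  have e2' := hmp.quasiMeasurePreserving.ae e2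
  have hB : MeasurableSet
      {x : E d | 3 * l / 4 ≤ x i0 ∧ x i0 ≤ 5 * l / 4 ∧ 1 / 2 ≤ x i1 ∧ x i1 ≤ 1} := by
    have m0 := measurable_coord i0
    have m1 := measurable_coord i1
    exact (measurableSet_le measurable_const m0).inter ((measurableSet_le m0 measurable_const).inter
      ((measurableSet_le measurable_const m1).inter (measurableSet_le m1 measurable_const)))
  have hbox := uniformProbOn_cube_box2 (d := d) i0 i1 h01 (3 * l / 4) (5 * l / 4) (1 / 2) 1
      (by linarith) (by linarith) (by linarith) (by norm_num) (by norm_num) le_rfl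
  calc ENNReal.ofReal (l / 16)
      = rho d {x : E d | 3 * l / 4 ≤ x i0 ∧ x i0 ≤ 5 * l / 4 ∧ 1 / 2 ≤ x i1 ∧ x i1 ≤ 1} := by
        unfold rho
        rw [hbox]
        congr 1
        ring
    _ = ∫⁻ x, Set.indicator
          {x : E d | 3 * l / 4 ≤ x i0 ∧ x i0 ≤ 5 * l / 4 ∧ 1 / 2 ≤ x i1 ∧ x i1 ≤ 1} 1 x ∂(rho d) :=
        (lintegral_indicator_one hB).symm
    _ ≤ ∫⁻ x, ‖Tμ x - Tν x‖ₑ ^ 2 ∂(rho d) := by
        refine lintegral_mono_ae ?_
        filter_upwards [e1, e2'] with x h1 h2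
        by_cases hxB : x ∈ {x : E d | 3 * l / 4 ≤ x i0 ∧ x i0 ≤ 5 * l / 4 ∧ 1 / 2 ≤ x i1 ∧ x i1 ≤ 1}
        · rw [Set.indicator_of_mem hxB]
          obtain ⟨b1, b2, b3, b4⟩ := hxB
          have s1 := sel_box i0 i1 l hl x b1 b2 b3
          have r0 : refl1 i1 x i0 = x i0 := by rw [refl1_apply, if_neg h01]
          have r1 : refl1 i1 x i1 = - x i1 := by rw [refl1_apply, if_pos rfl]
          have s2 := sel_box' i0 i1 l hl (refl1 i1 x) (by rw [r0]; exact b1) (by rw [r0]; exact b2)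
            (by rw [r1]; linarith)
          have t1 : Tμ x = site i0 i1 l 2 := by
            rw [h1 s1.2]; unfold Tmap; rw [s1.1]
          have t2 : Tν x = site i0 i1 l 0 := by
            have h3 := h2 s2.2
            simp only [refl1_refl1] at h3
            have h4 : Tν x = refl1 i1 (Tmap i0 i1 l (refl1 i1 x)) := by
              rw [← h3, refl1_refl1]
            rw [h4]; unfold Tmap; rw [s2.1, refl1_site_zero _ _ _ h01]
          rw [t1, t2, enorm_sq]
          have hv : (site i0 i1 l 2 - site i0 i1 l 0) i0 = -1 := by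
            rw [PiLp.sub_apply, site_two_apply, site_zero_apply, if_neg h01, if_pos rfl]
            norm_num
          have hn := PiLp.norm_apply_le (site i0 i1 l 2 - site i0 i1 l 0) i0
          rw [hv] at hn
          simp only [norm_neg, norm_one] at hn
          have : (1 : ℝ≥0∞) = ENNReal.ofReal 1 := by simp
          rw [Pi.one_apply, this]
          apply ENNReal.ofReal_le_ofReal
          nlinarith
        · rw [Set.indicator_of_notMem hxB]
          exact zero_le

end Lower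

theorem exists_small (α : ℝ) (hα : 1 / 3 < α) (C : ℝ≥0) :
    ∃ l : ℝ, 0 < l ∧ l ≤ 1 / 4 ∧
      (C : ℝ≥0∞) * ENNReal.ofReal (8 * l ^ 3) ^ α < ENNReal.ofReal (l / 16) := by
  have hα0 : 0 < α := by linarith
  set β : ℝ := 3 * α - 1 with hβ
  have hβ0 : 0 < β := by rw [hβ]; linarith
  set K : ℝ := 16 * (C : ℝ) * (8 : ℝ) ^ α with hK
  have hK0 : 0 ≤ K := by rw [hK]; positivity
  set t : ℝ := 1 / (K + 1) with ht
  have ht0 : 0 < t := by rw [ht]; positivity
  set l : ℝ := min (1 / 4) (t ^ (1 / β)) with hl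
  have hl0 : 0 < l := lt_min (by norm_num) (Real.rpow_pos_of_pos ht0 _)
  have hl4 : l ≤ 1 / 4 := min_le_left _ _
  have hlt : l ^ β ≤ t := by
    calc l ^ β ≤ (t ^ (1 / β)) ^ β := Real.rpow_le_rpow hl0.le (min_le_right _ _) hβ0.le
      _ = t := by
        rw [← Real.rpow_mul ht0.le, one_div, inv_mul_cancel₀ hβ0.ne', Real.rpow_one]
  refine ⟨l, hl0, hl4, ?_⟩
  have h8 : (0 : ℝ) ≤ 8 * l ^ 3 := by positivity
  rw [ENNReal.ofReal_rpow_of_nonneg h8 hα0.le, ← ENNReal.ofReal_coe_nnreal,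
    ← ENNReal.ofReal_mul (NNReal.coe_nonneg C), ENNReal.ofReal_lt_ofReal_iff (by positivity)]
  -- real inequality
  have e1 : (8 * l ^ 3) ^ α = (8 : ℝ) ^ α * (l * l ^ β) := by
    rw [Real.mul_rpow (by norm_num) (by positivity)]
    congr 1
    rw [← Real.rpow_natCast l 3, ← Real.rpow_mul hl0.le]
    have : ((3 : ℕ) : ℝ) * α = 1 + β := by rw [hβ]; push_cast; ring
    rw [this, Real.rpow_add hl0, Real.rpow_one]
  rw [e1]
  have hKt : K * t < 1 := by
    rw [ht, mul_one_div, div_lt_one (by positivity)]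
    linarith
  have hKl : K * l ^ β < 1 := lt_of_le_of_lt (mul_le_mul_of_nonneg_left hlt hK0) hKt
  have : (C : ℝ) * ((8 : ℝ) ^ α * (l * l ^ β)) = l / 16 * (K * l ^ β) := by
    rw [hK]; ring
  rw [this]
  calc l / 16 * (K * l ^ β) < l / 16 * 1 := by
        apply mul_lt_mul_of_pos_left hKl (by positivity)
    _ = l / 16 := mul_one _

theorem main (d : ℕ) (hd : 2 ≤ d) (α : ℝ) (hα : 1 / 3 < α) (C : ℝ≥0) :
    ∃ μ ν : Measure (E d),
      IsProbabilityOn (cube d) μ ∧ IsProbabilityOn (cube d) ν ∧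
      IsThreeAtomic μ ∧ IsThreeAtomic ν ∧
      (∃ T, IsOptimalMap (uniformProbOn (cube d)) μ T) ∧
      (∃ T, IsOptimalMap (uniformProbOn (cube d)) ν T) ∧
      ∀ Tμ Tν : E d → E d,
        IsOptimalMap (uniformProbOn (cube d)) μ Tμ →
        IsOptimalMap (uniformProbOn (cube d)) ν Tν →
        ∃ π : Measure (E d × E d), IsPairCoupling μ ν π ∧
          (C : ℝ≥0∞) * quadCost π ^ α < ∫⁻ x, ‖Tμ x - Tν x‖ₑ ^ 2 ∂(uniformProbOn (cube d)) := by
  obtain ⟨l, hl0, hl4, hlt⟩ := exists_small α hα C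
  have hα0 : 0 < α := by linarith
  set i0 : Fin d := ⟨0, by omega⟩ with hi0
  set i1 : Fin d := ⟨1, by omega⟩ with hi1
  have h01 : i0 ≠ i1 := by
    rw [hi0, hi1]; intro h; simp [Fin.ext_iff] at h
  have hl1 : |l| ≤ 1 := by rw [abs_of_pos hl0]; linarith
  refine ⟨mu i0 i1 l, nu i0 i1 l, isProbabilityOn_mu i0 i1 l hl1, isProbabilityOn_nu i0 i1 l hl1,
    isThreeAtomic_mu i0 i1 l h01 hl0 hl4, isThreeAtomic_nu i0 i1 l h01 hl0 hl4,
    ⟨_, isOptimalMap_mu i0 i1 l h01 hl0⟩, ⟨_, isOptimalMap_nu i0 i1 l h01 hl0⟩, ?_⟩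
  intro Tμ Tν hμ hν
  refine ⟨cpl i0 i1 l, isPairCoupling_cpl i0 i1 l, ?_⟩
  calc (C : ℝ≥0∞) * quadCost (cpl i0 i1 l) ^ α
      ≤ (C : ℝ≥0∞) * ENNReal.ofReal (8 * l ^ 3) ^ α := by
        gcongr
        exact quadCost_cpl_le i0 i1 l h01 hl0 hl4
    _ < ENNReal.ofReal (l / 16) := hlt
    _ ≤ ∫⁻ x, ‖Tμ x - Tν x‖ₑ ^ 2 ∂(uniformProbOn (cube d)) :=
        lower_bound i0 i1 l h01 hl0 hl4 Tμ Tν hμ hν

end Crest.Agent.S0110
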