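import Crest.Agent.S0110.Defs

/-!
# S0110 (row 82), part (a): the uniform probability measure on the cube

Facts about `uniformProbOn (cube d)`: it is a probability measure carried by the cube, it is
invariant under the coordinate reflections `refl1 j`, and the mass of a box in two coordinates.
-/

set_option autoImplicit false
open MeasureTheory
open scoped ENNReal NNReal RealInnerProductSpace
open Crest.AnalysisR.OT

namespace Crest.Agent.S0110

/-- A coordinate box in `E d` as a preimage of an order interval of `Fin d → ℝ`. -/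
theorem box_eq_preimage {d : ℕ} (a b : Fin d → ℝ) :
    {x : E d | ∀ i, a i ≤ x i ∧ x i ≤ b i} = (WithLp.ofLp) ⁻¹' (Set.Icc a b) := by
  ext x
  simp only [Set.mem_ofPred_eq, Set.mem_preimage, Set.mem_Icc, Pi.le_def]
  exact forall_and

/-- Coordinate boxes are measurable. -/
theorem measurableSet_box {d : ℕ} (a b : Fin d → ℝ) :
    MeasurableSet {x : E d | ∀ i, a i ≤ x i ∧ x i ≤ b i} := by
  rw [box_eq_preimage]
  exact (PiLp.volume_preserving_ofLp (Fin d)).measurable measurableSet_Icc

/-- Volume of a coordinate box. -/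
theorem volume_box {d : ℕ} (a b : Fin d → ℝ) :
    volume {x : E d | ∀ i, a i ≤ x i ∧ x i ≤ b i} = ∏ i, ENNReal.ofReal (b i - a i) := by
  rw [box_eq_preimage,
    (PiLp.volume_preserving_ofLp (Fin d)).measure_preimage measurableSet_Icc.nullMeasurableSet,
    Real.volume_Icc_pi]

/-- The cube as a coordinate box. -/
theorem cube_eq_box (d : ℕ) :
    cube d = {x : E d | ∀ i, (fun _ : Fin d => (-1 : ℝ)) i ≤ x i ∧ x i ≤ (fun _ : Fin d => (1 : ℝ)) i} := by
  ext x
  simp only [mem_cube, Set.mem_ofPred_eq, abs_le]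

/-- The cube is measurable (it is closed). -/
theorem measurableSet_cube (d : ℕ) : MeasurableSet (cube d) := by
  rw [cube_eq_box]
  exact measurableSet_box _ _

/-- `volume (cube d) = 2 ^ d`. -/
theorem volume_cube (d : ℕ) : volume (cube d) = 2 ^ d := by
  rw [cube_eq_box, volume_box]
  have h2 : ENNReal.ofReal ((1 : ℝ) - (-1)) = 2 := by
    rw [show ((1 : ℝ) - (-1)) = 2 by norm_num]
    exact ENNReal.ofReal_ofNat 2
  simp only [h2, Finset.prod_const, Finset.card_univ, Fintype.card_fin]

theorem volume_cube_ne_zero (d : ℕ) : volume (cube d) ≠ 0 := by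
  rw [volume_cube]
  exact pow_ne_zero _ (by norm_num)

theorem volume_cube_ne_top (d : ℕ) : volume (cube d) ≠ ⊤ := by
  rw [volume_cube]
  exact ENNReal.pow_ne_top (by norm_num)

/-- Unfolding `uniformProbOn (cube d)` on a measurable set. -/
theorem uniformProbOn_cube_apply (d : ℕ) {s : Set (E d)} (hs : MeasurableSet s) :
    uniformProbOn (cube d) s = (2 ^ d : ℝ≥0∞)⁻¹ * volume (s ∩ cube d) := by
  unfold uniformProbOn
  rw [Measure.smul_apply, Measure.restrict_apply hs, volume_cube, smul_eq_mul]

/-- The uniform measure on the cube is a probability measure. -/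
theorem isProbabilityMeasure_cube (d : ℕ) : IsProbabilityMeasure (uniformProbOn (cube d)) := by
  constructor
  rw [uniformProbOn_cube_apply d MeasurableSet.univ, Set.univ_inter, volume_cube]
  exact ENNReal.inv_mul_cancel (pow_ne_zero _ (by norm_num)) (ENNReal.pow_ne_top (by norm_num))

/-- The uniform measure on the cube gives no mass to the complement of the cube. -/
theorem uniformProbOn_cube_compl (d : ℕ) : uniformProbOn (cube d) (cube d)ᶜ = 0 := by
  rw [uniformProbOn_cube_apply d (measurableSet_cube d).compl, Set.compl_inter_self,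
    measure_empty, mul_zero]

theorem refl1_preimage_cube {d : ℕ} (j : Fin d) : (refl1 j) ⁻¹' (cube d) = cube d := by
  ext x
  simp only [Set.mem_preimage, mem_cube, refl1_apply]
  constructor
  · intro h i
    have := h i
    by_cases hij : i = j
    · simpa [hij, abs_neg] using this
    · simpa [hij] using this
  · intro h i
    have := h i
    by_cases hij : i = j
    · simpa [hij, abs_neg] using this
    · simpa [hij] using this

/-- The uniform measure on the cube is invariant under the reflection `x_j ↦ -x_j`. -/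
theorem map_refl1_uniformProbOn_cube {d : ℕ} (j : Fin d) :
    (uniformProbOn (cube d)).map (refl1 j) = uniformProbOn (cube d) := by
  unfold uniformProbOn
  have hmp : MeasurePreserving (refl1 j) (volume : Measure (E d)) volume :=
    LinearIsometryEquiv.measurePreserving (refl1 j)
  have h := (hmp.restrict_preimage (measurableSet_cube d)).map_eq
  rw [refl1_preimage_cube] at h
  rw [Measure.map_smul, h]

/-- Mass of a box in two distinct coordinates `i0 ≠ i1`: the set of points with
`x i0 ∈ [a0,b0]`, `x i1 ∈ [a1,b1]` (sub-intervals of `[-1,1]`) has mass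
`(b0-a0)/2 * ((b1-a1)/2)` for the uniform probability measure on the cube. -/
theorem uniformProbOn_cube_box2 {d : ℕ} (i0 i1 : Fin d) (h01 : i0 ≠ i1) (a0 b0 a1 b1 : ℝ)
    (ha0 : -1 ≤ a0) (hab0 : a0 ≤ b0) (hb0 : b0 ≤ 1)
    (ha1 : -1 ≤ a1) (hab1 : a1 ≤ b1) (hb1 : b1 ≤ 1) :
    uniformProbOn (cube d) {x : E d | a0 ≤ x i0 ∧ x i0 ≤ b0 ∧ a1 ≤ x i1 ∧ x i1 ≤ b1}
      = ENNReal.ofReal ((b0 - a0) / 2 * ((b1 - a1) / 2)) := by
  classical
  set a : Fin d → ℝ := fun i => if i = i0 then a0 else if i = i1 then a1 else -1 with ha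
  set b : Fin d → ℝ := fun i => if i = i0 then b0 else if i = i1 then b1 else 1 with hb
  have hset : {x : E d | a0 ≤ x i0 ∧ x i0 ≤ b0 ∧ a1 ≤ x i1 ∧ x i1 ≤ b1} ∩ cube d
      = {x : E d | ∀ i, a i ≤ x i ∧ x i ≤ b i} := by
    ext x
    simp only [Set.mem_inter_iff, Set.mem_ofPred_eq, mem_cube]
    constructor
    · rintro ⟨⟨h1, h2, h3, h4⟩, hc⟩ i
      by_cases hi0 : i = i0
      · subst hi0; simp [ha, hb, h1, h2]
      · by_cases hi1 : i = i1
        · subst hi1; simp [ha, hb, hi0, h3, h4]
        · have := abs_le.mp (hc i)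
          simp [ha, hb, hi0, hi1, this.1, this.2]
    · intro h
      have h0 := h i0
      have h1 := h i1
      have h10 : i1 ≠ i0 := fun h => h01 h.symm
      simp only [ha, hb, if_true, h10, if_false] at h0 h1
      refine ⟨⟨h0.1, h0.2, h1.1, h1.2⟩, fun i => ?_⟩
      have hi := h i
      rw [abs_le]
      by_cases hi0 : i = i0
      · subst hi0
        simp only [ha, hb, if_true] at hi
        exact ⟨le_trans ha0 hi.1, le_trans hi.2 hb0⟩
      · by_cases hi1 : i = i1
        · subst hi1
          simp only [ha, hb, hi0, if_false, if_true] at hi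
          exact ⟨le_trans ha1 hi.1, le_trans hi.2 hb1⟩
        · simpa [ha, hb, hi0, hi1] using hi
  have hmeas : MeasurableSet {x : E d | a0 ≤ x i0 ∧ x i0 ≤ b0 ∧ a1 ≤ x i1 ∧ x i1 ≤ b1} := by
    have h1 : {x : E d | a0 ≤ x i0 ∧ x i0 ≤ b0 ∧ a1 ≤ x i1 ∧ x i1 ≤ b1}
        = (fun x : E d => x i0) ⁻¹' (Set.Icc a0 b0) ∩ (fun x : E d => x i1) ⁻¹' (Set.Icc a1 b1) := by
      ext x
      simp only [Set.mem_ofPred_eq, Set.mem_inter_iff, Set.mem_preimage, Set.mem_Icc, and_assoc]
    rw [h1]
    have hm : ∀ i : Fin d, Measurable (fun x : E d => x i) := fun i =>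
      (measurable_pi_apply i).comp (PiLp.volume_preserving_ofLp (Fin d)).measurable
    exact ((hm i0) measurableSet_Icc).inter ((hm i1) measurableSet_Icc)
  rw [uniformProbOn_cube_apply d hmeas, hset, volume_box]
  -- real computation
  set r : Fin d → ℝ := fun i => if i = i0 then (b0 - a0) / 2 else if i = i1 then (b1 - a1) / 2 else 1
    with hr
  have hr0 : ∀ i, 0 ≤ r i := by
    intro i
    simp only [hr]
    split_ifs <;> linarith
  have hba : ∀ i, b i - a i = 2 * r i := by
    intro i
    simp only [ha, hb, hr]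
    split_ifs <;> ring
  have hprod : ∏ i, ENNReal.ofReal (b i - a i) = 2 ^ d * ENNReal.ofReal (∏ i, r i) := by
    rw [ENNReal.ofReal_prod_of_nonneg (fun i _ => hr0 i)]
    have : ∀ i, ENNReal.ofReal (b i - a i) = 2 * ENNReal.ofReal (r i) := by
      intro i
      rw [hba i, ENNReal.ofReal_mul (by norm_num), ENNReal.ofReal_ofNat]
    simp only [this, Finset.prod_mul_distrib, Finset.prod_const, Finset.card_univ,
      Fintype.card_fin]
  have hr2 : ∏ i, r i = (b0 - a0) / 2 * ((b1 - a1) / 2) := by
    have h10 : i1 ≠ i0 := fun h => h01 h.symm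
    rw [Finset.prod_eq_mul i0 i1 h01]
    · simp [hr, h10]
    · intro c _ hc
      simp [hr, hc.1, hc.2]
    · intro h; exact absurd (Finset.mem_univ _) h
    · intro h; exact absurd (Finset.mem_univ _) h
  rw [hprod, hr2, ← mul_assoc,
    ENNReal.inv_mul_cancel (pow_ne_zero _ (by norm_num)) (ENNReal.pow_ne_top (by norm_num)),
    one_mul]

end Crest.Agent.S0110
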