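import Mathlib
import Crest.Prelude.Def_QuadraticTransport

/-!
# S0110 (row 82): shared definitions

`E d` is `EuclideanSpace ℝ (Fin d)`, `cube d` the cube `[-1,1]^d` (definitionally the set used in
the frozen statement), `refl1 j` the reflection `x_j ↦ -x_j` as a linear isometry equivalence.
-/

set_option autoImplicit false
open MeasureTheory
open scoped ENNReal NNReal RealInnerProductSpace
open Crest.AnalysisR.OT

namespace Crest.Agent.S0110

/-- Euclidean space of dimension `d`. -/
abbrev E (d : ℕ) : Type := EuclideanSpace ℝ (Fin d)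

/-- The cube `[-1,1]^d` (same set as in the frozen statement, up to unfolding). -/
def cube (d : ℕ) : Set (E d) := {x : EuclideanSpace ℝ (Fin d) | ∀ i, |x i| ≤ 1}

theorem mem_cube {d : ℕ} {x : E d} : x ∈ cube d ↔ ∀ i, |x i| ≤ 1 := Iff.rfl

/-- Reflection `x_j ↦ -x_j` as a linear isometry equivalence of `E d`. -/
noncomputable def refl1 {d : ℕ} (j : Fin d) : E d ≃ₗᵢ[ℝ] E d :=
  LinearIsometryEquiv.piLpCongrRight 2
    (fun i => if i = j then LinearIsometryEquiv.neg ℝ else LinearIsometryEquiv.refl ℝ ℝ)

theorem refl1_apply {d : ℕ} (j : Fin d) (x : E d) (i : Fin d) :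
    refl1 j x i = if i = j then - x i else x i := by
  unfold refl1
  by_cases h : i = j <;> simp [h]

theorem refl1_refl1 {d : ℕ} (j : Fin d) (x : E d) : refl1 j (refl1 j x) = x := by
  ext i
  by_cases h : i = j <;> simp [refl1_apply, h]

end Crest.Agent.S0110
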